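import Vale.Agent.P062.Core

/-!
# P062: sets of cells coded by natural numbers, and the certificate rules
-/

namespace Vale.Agent.P062

/-- The cell with number `i`. -/
def dec (i : ℕ) : Cell := (((i % 24 : ℕ) : ℤ) - 12, ((i / 24 : ℕ) : ℤ) - 12)

theorem dec_injective : Function.Injective dec := by
  intro i j h
  simp only [dec, Prod.mk.injEq] at h
  obtain ⟨h1, h2⟩ := h
  have h3 : i % 24 = j % 24 := by omega
  have h4 : i / 24 = j / 24 := by omega
  omega

/-- The set of cells coded by `a`. -/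
def cells (a : ℕ) : Set Cell := {p | ∃ i, a.testBit i = true ∧ dec i = p}

theorem mem_cells_dec {a i : ℕ} : dec i ∈ cells a ↔ a.testBit i = true := by
  constructor
  · rintro ⟨j, hj, h⟩
    rwa [← dec_injective h]
  · intro h
    exact ⟨i, h, rfl⟩

theorem cells_and (a b : ℕ) : cells (a &&& b) = cells a ∩ cells b := by
  ext p
  constructor
  · rintro ⟨i, hi, rfl⟩
    rw [Nat.testBit_and, Bool.and_eq_true] at hi
    exact ⟨⟨i, hi.1, rfl⟩, ⟨i, hi.2, rfl⟩⟩
  · rintro ⟨⟨i, hi, rfl⟩, h2⟩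
    rw [mem_cells_dec] at h2
    exact ⟨i, by rw [Nat.testBit_and, hi, h2]; rfl, rfl⟩

theorem cells_or (a b : ℕ) : cells (a ||| b) = cells a ∪ cells b := by
  ext p
  constructor
  · rintro ⟨i, hi, rfl⟩
    rw [Nat.testBit_or, Bool.or_eq_true] at hi
    rcases hi with hi | hi
    · exact Or.inl ⟨i, hi, rfl⟩
    · exact Or.inr ⟨i, hi, rfl⟩
  · rintro (⟨i, hi, rfl⟩ | ⟨i, hi, rfl⟩)
    · exact ⟨i, by rw [Nat.testBit_or, hi]; rfl, rfl⟩
    · exact ⟨i, by rw [Nat.testBit_or, hi, Bool.or_true], rfl⟩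

theorem cells_subset {a b : ℕ} (h : a &&& b = a) : cells a ⊆ cells b := by
  rw [← h, cells_and]
  exact Set.inter_subset_right

theorem cells_bit (i : ℕ) : cells (1 <<< i) = {dec i} := by
  ext p
  constructor
  · rintro ⟨j, hj, rfl⟩
    rw [Nat.one_shiftLeft, Nat.testBit_two_pow] at hj
    rw [Set.mem_singleton_iff, of_decide_eq_true hj]
  · rintro rfl
    exact ⟨i, by rw [Nat.one_shiftLeft, Nat.testBit_two_pow]; simp, rfl⟩

/-- Coded version of `Good`. -/
def GN (a z : ℕ) : Prop := Good (cells a) (cells z)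

/-- Coded version of `Fam`. -/
def FN (i u v : ℕ) : Prop := Fam (cells i) (cells u) (cells v)

theorem f1 {a z : ℕ} (h : GN a z) : FN z a z := Fam.single h

theorem fc {a z i u v : ℕ} (h : GN a z) (k : FN i u v) :
    FN (Nat.land i z) (Nat.lor u a) (Nat.lor v z) := by
  have := Fam.cons h k
  rw [← cells_and, ← cells_or, ← cells_or] at this
  exact this

/-- The check for one step of a certificate. -/
def chk (i u v a z m : ℕ) : Bool :=
  Nat.beq (Nat.land i (Nat.lor a m)) i &&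
  (Nat.beq (Nat.land u (Nat.lor a m)) u &&
  (Nat.beq (Nat.land v (Nat.lor z a)) v && Nat.beq (Nat.land m z) m))

theorem st {i u v a z : ℕ} (m : ℕ) (k : FN i u v)
    (h : chk i u v a z (Nat.shiftLeft 1 m) = true) : GN a z := by
  unfold chk at h
  rw [Bool.and_eq_true, Bool.and_eq_true, Bool.and_eq_true] at h
  obtain ⟨h1, h2, h3, h4⟩ := h
  have h1 := Nat.eq_of_beq_eq_true h1
  have h2 := Nat.eq_of_beq_eq_true h2
  have h3 := Nat.eq_of_beq_eq_true h3
  have h4 := Nat.eq_of_beq_eq_true h4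
  have e1 : cells (Nat.lor a (Nat.shiftLeft 1 m)) = insert (dec m) (cells a) := by
    have := cells_or a (1 <<< m)
    rw [cells_bit, Set.union_singleton] at this
    exact this
  refine Good.step (dec m) k ?_ ?_ ?_ ?_
  · have := cells_subset h4
    apply this
    have h5 := cells_bit m
    change dec m ∈ cells (1 <<< m)
    rw [h5]; rfl
  · rw [← e1]; exact cells_subset h1
  · rw [← e1]; exact cells_subset h2
  · rw [← cells_or]; exact cells_subset h3

/-- Weakening of a certificate entry. -/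
theorem wk {a z : ℕ} (a' z' : ℕ) (h : GN a z)
    (hc : (Nat.beq (Nat.land a a') a && Nat.beq (Nat.land z (Nat.lor z' a')) z) = true) :
    GN a' z' := by
  rw [Bool.and_eq_true] at hc
  have h1 := Nat.eq_of_beq_eq_true hc.1
  have h2 := Nat.eq_of_beq_eq_true hc.2
  refine Good.weaken h (cells_subset h1) ?_
  rw [← cells_or]; exact cells_subset h2

theorem dec_add {s u v w : ℕ} (h : s % 24 + w < 24) (hu : u ≤ w) :
    dec (s + (u + 24 * v)) = dec s + ((u : ℤ), (v : ℤ)) := by
  simp only [dec, Prod.mk_add_mk, Prod.mk.injEq]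
  constructor
  · have : (s + (u + 24 * v)) % 24 = s % 24 + u := by omega
    rw [this]; push_cast; ring
  · have : (s + (u + 24 * v)) / 24 = s / 24 + v := by omega
    rw [this]; push_cast; ring

theorem copy_sub (sw : Bool) (e d : ℤˣ) (cx cy : ℤ) (sm w : ℕ)
    (h : ∀ p ∈ snaky, ∃ u v : ℕ, u ≤ w ∧ sm.testBit (u + 24 * v) = true ∧
      signedPerm sw e d p = ((u : ℤ) + cx, (v : ℤ) + cy))
    (s : ℕ) (hw : s % 24 + w < 24) : ∃ C, IsCopy C ∧ ∀ c ∈ C, c ∈ cells (sm <<< s) := by
  refine ⟨_, ⟨dec s - (cx, cy), sw, e, d, rfl⟩, fun c hc => ?_⟩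
  obtain ⟨p, hp, rfl⟩ := Finset.mem_image.1 hc
  obtain ⟨u, v, h1, h2, h3⟩ := h p hp
  have : dec s - (cx, cy) + signedPerm sw e d p = dec (s + (u + 24 * v)) := by
    rw [dec_add hw h1, h3]
    ext <;> simp <;> ring
  beta_reduce
  rw [this, mem_cells_dec, Nat.testBit_shiftLeft]
  simp [h2]

/-- The check for a copy with one missing cell. -/
def chkB (sm w s j a z : ℕ) : Bool :=
  Nat.beq (Nat.lor a z) (Nat.shiftLeft sm s) &&
  (Nat.beq z (Nat.shiftLeft 1 j) && Nat.ble (s % 24 + w) 23)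

theorem base_aux {sm w s j a z : ℕ}
    (hs : ∀ s : ℕ, s % 24 + w < 24 → ∃ C, IsCopy C ∧ ∀ c ∈ C, c ∈ cells (sm <<< s))
    (h : chkB sm w s j a z = true) : GN a z := by
  unfold chkB at h
  rw [Bool.and_eq_true, Bool.and_eq_true] at h
  obtain ⟨h1, h2, h3⟩ := h
  have h1 := Nat.eq_of_beq_eq_true h1
  have h2 := Nat.eq_of_beq_eq_true h2
  have h3 := Nat.le_of_ble_eq_true h3
  obtain ⟨C, hC, hc⟩ := hs s (by omega)
  have ez : cells z = {dec j} := by rw [h2]; exact cells_bit j
  have e1 : cells (sm <<< s) = cells a ∪ cells z := by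
    rw [← cells_or]; exact congrArg cells h1.symm
  refine Good.base hC (dec j) (by rw [ez]; rfl) fun c hcC hne => ?_
  have := hc c hcC
  rw [e1, ez] at this
  rcases this with h | h
  · exact h
  · exact (hne h).elim

/- Orientation masks: rows of width 24. -/

theorem mem_snaky {p : Cell} (hp : p ∈ snaky) :
    p = (0, 0) ∨ p = (1, 0) ∨ p = (2, 0) ∨ p = (3, 0) ∨ p = (3, 1) ∨ p = (4, 1) := by
  simpa [snaky] using hp

end Vale.Agent.P062
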