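import Vale.Agent.P062.Game

/-!
# P062: positions, certificates and the passage to strategies
-/

namespace Vale.Agent.P062

/-- Maker (to move) can own a copy within `n` claims; Maker may also claim again a cell she
already owns (this relaxation is removed below). -/
def WinIn : ℕ → Finset Cell → Finset Cell → Prop
  | 0, _, _ => False
  | n + 1, M, B => ∃ m, m ∉ B ∧
      ((∃ C, IsCopy C ∧ C ⊆ insert m M) ∨
        ∀ b, b ∉ insert m M → b ∉ B → WinIn n (insert m M) (insert b B))

theorem WinIn.mono {n : ℕ} : ∀ {M M' B : Finset Cell}, M ⊆ M' → WinIn n M B → WinIn n M' B := by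
  induction n with
  | zero => intro M M' B _ h; exact h
  | succ n ih =>
    intro M M' B hM h
    obtain ⟨m, hm, h⟩ := h
    refine ⟨m, hm, ?_⟩
    rcases h with ⟨C, hC, hs⟩ | h
    · exact Or.inl ⟨C, hC, hs.trans (Finset.insert_subset_insert m hM)⟩
    · refine Or.inr fun b hb hb' => ?_
      have hb2 : b ∉ insert m M := fun hh => hb (Finset.insert_subset_insert m hM hh)
      exact ih (Finset.insert_subset_insert m hM) (h b hb2 hb')

theorem WinIn.succ {n : ℕ} : ∀ {M B : Finset Cell}, WinIn n M B → WinIn (n + 1) M B := by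
  induction n with
  | zero => intro M B h; exact h.elim
  | succ n ih =>
    intro M B h
    obtain ⟨m, hm, h⟩ := h
    refine ⟨m, hm, ?_⟩
    rcases h with h | h
    · exact Or.inl h
    · exact Or.inr fun b hb hb' => ih (h b hb hb')

theorem WinIn.le {n k : ℕ} (hnk : n ≤ k) {M B : Finset Cell} (h : WinIn n M B) :
    WinIn k M B := by
  induction hnk with
  | refl => exact h
  | step _ ih => exact ih.succ

/-- `Good M Z`: for some `n`, Maker to move wins within `n` claims from every position in which
she owns `M` and Breaker owns no cell of `Z`. -/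
def Good (M Z : Set Cell) : Prop :=
  ∃ n, ∀ M' B' : Finset Cell, (∀ c ∈ M, c ∈ M') → (∀ c ∈ B', c ∉ M') → (∀ c ∈ B', c ∉ Z) →
    WinIn n M' B'

/-- A family of good pairs such that every cell outside `I` avoids the zone of one of them,
all their Maker cells lie in `U`, and all their zones lie in `V`. -/
def Fam (I U V : Set Cell) : Prop :=
  ∃ n, ∀ b, b ∉ I → ∃ M Z : Set Cell, b ∉ Z ∧ M ⊆ U ∧ Z ⊆ V ∧
    ∀ M' B' : Finset Cell, (∀ c ∈ M, c ∈ M') → (∀ c ∈ B', c ∉ M') → (∀ c ∈ B', c ∉ Z) →
    WinIn n M' B'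

theorem Fam.single {M Z : Set Cell} (h : Good M Z) : Fam Z M Z := by
  obtain ⟨n, h⟩ := h
  exact ⟨n, fun b hb => ⟨M, Z, hb, subset_rfl, subset_rfl, h⟩⟩

theorem Fam.cons {M Z I U V : Set Cell} (h : Good M Z) (k : Fam I U V) :
    Fam (I ∩ Z) (U ∪ M) (V ∪ Z) := by
  obtain ⟨n, h⟩ := h
  obtain ⟨n', k⟩ := k
  refine ⟨max n n', fun b hb => ?_⟩
  by_cases hz : b ∈ Z
  · have hi : b ∉ I := fun hi => hb ⟨hi, hz⟩
    obtain ⟨M1, Z1, h1, h2, h3, h4⟩ := k b hi
    exact ⟨M1, Z1, h1, h2.trans Set.subset_union_left, h3.trans Set.subset_union_left,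
      fun M' B' a1 a2 a3 => (h4 M' B' a1 a2 a3).le (le_max_right _ _)⟩
  · exact ⟨M, Z, hz, Set.subset_union_right, Set.subset_union_right,
      fun M' B' a1 a2 a3 => (h M' B' a1 a2 a3).le (le_max_left _ _)⟩

theorem Good.step {I U V M Z : Set Cell} (m : Cell) (k : Fam I U V) (hm : m ∈ Z)
    (hI : I ⊆ insert m M) (hU : U ⊆ insert m M) (hV : V ⊆ Z ∪ M) : Good M Z := by
  obtain ⟨n, k⟩ := k
  refine ⟨n + 1, fun M' B' h1 h2 h3 => ?_⟩
  have hmB : m ∉ B' := fun h => h3 m h hm
  refine ⟨m, hmB, Or.inr fun b hb hb' => ?_⟩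
  have hsub : ∀ c ∈ insert m M, c ∈ insert m M' := by
    intro c hc
    rcases hc with rfl | hc
    · exact Finset.mem_insert_self _ _
    · exact Finset.mem_insert_of_mem (h1 c hc)
  have hbI : b ∉ I := fun h => hb (hsub b (hI h))
  obtain ⟨M1, Z1, g1, g2, g3, g4⟩ := k b hbI
  refine g4 _ _ (fun c hc => hsub c (hU (g2 hc))) ?_ ?_
  · intro c hc
    rcases Finset.mem_insert.1 hc with rfl | hc
    · exact hb
    · intro h
      rcases Finset.mem_insert.1 h with rfl | h
      · exact hmB hc
      · exact h2 c hc h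
  · intro c hc hz
    rcases Finset.mem_insert.1 hc with rfl | hc
    · exact g1 hz
    · rcases hV (g3 hz) with h | h
      · exact h3 c hc h
      · exact h2 c hc (h1 c h)

theorem Good.base {C : Finset Cell} (hC : IsCopy C) (e : Cell) {M Z : Set Cell}
    (hZ : e ∈ Z) (hM : ∀ c ∈ C, c ≠ e → c ∈ M) : Good M Z := by
  refine ⟨1, fun M' B' h1 _ h3 => ?_⟩
  refine ⟨e, fun h => h3 e h hZ, Or.inl ⟨C, hC, fun c hc => ?_⟩⟩
  by_cases h : c = e
  · rw [h]; exact Finset.mem_insert_self _ _
  · exact Finset.mem_insert_of_mem (h1 c (hM c hc h))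

/-- Weakening. -/
theorem Good.weaken {M Z M2 Z2 : Set Cell} (h : Good M Z) (hM : M ⊆ M2) (hZ : Z ⊆ Z2 ∪ M2) :
    Good M2 Z2 := by
  obtain ⟨n, h⟩ := h
  refine ⟨n, fun M' B' h1 h2 h3 => h M' B' (fun c hc => h1 c (hM hc)) h2 ?_⟩
  intro c hc hz
  rcases hZ hz with hz | hz
  · exact h3 c hc hz
  · exact h2 c hc (h1 c hz)

/-! ## From `Good` to strategies -/

/-- Like `WinIn`, but Maker only claims free cells. -/
def WinR : ℕ → Finset Cell → Finset Cell → Prop
  | 0, _, _ => False
  | n + 1, M, B => ∃ m, m ∉ M ∧ m ∉ B ∧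
      ((∃ C, IsCopy C ∧ C ⊆ insert m M) ∨
        ∀ b, b ∉ insert m M → b ∉ B → WinR n (insert m M) (insert b B))

theorem exists_fresh (S : Finset Cell) : ∃ c, c ∉ S := Infinite.exists_notMem_finset S

theorem WinIn.toR {n : ℕ} : ∀ {M B : Finset Cell}, WinIn n M B → WinR n M B := by
  induction n with
  | zero => intro M B h; exact h
  | succ n ih =>
    intro M B h
    obtain ⟨m, hm, h⟩ := h
    by_cases hmM : m ∈ M
    · obtain ⟨x, hx⟩ := exists_fresh (M ∪ B)
      have hx1 : x ∉ M := fun h => hx (Finset.mem_union_left _ h)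
      have hx2 : x ∉ B := fun h => hx (Finset.mem_union_right _ h)
      have hins : insert m M = M := Finset.insert_eq_of_mem hmM
      refine ⟨x, hx1, hx2, ?_⟩
      rcases h with ⟨C, hC, hs⟩ | h
      · exact Or.inl ⟨C, hC, (hins ▸ hs).trans (Finset.subset_insert x M)⟩
      · refine Or.inr fun b hb hb' => ?_
        have hb2 : b ∉ insert m M := by
          rw [hins]; exact fun hh => hb (Finset.mem_insert_of_mem hh)
        have := h b hb2 hb'
        rw [hins] at this
        exact ih (this.mono (Finset.subset_insert x M))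
    · refine ⟨m, hmM, hm, ?_⟩
      rcases h with h | h
      · exact Or.inl h
      · exact Or.inr fun b hb hb' => ih (h b hb hb')

open Classical in
/-- The cell Maker claims when she owns `M`, Breaker owns `B`, and `n` claims remain. -/
noncomputable def sel (n : ℕ) (M B : Finset Cell) : Cell :=
  if h : ∃ m, m ∉ M ∧ m ∉ B ∧ ((∃ C, IsCopy C ∧ C ⊆ insert m M) ∨
        ∀ b, b ∉ insert m M → b ∉ B → WinR (n - 1) (insert m M) (insert b B))
  then h.choose else (exists_fresh (M ∪ B)).choose

theorem sel_notMem (n : ℕ) (M B : Finset Cell) : sel n M B ∉ M ∧ sel n M B ∉ B := by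
  unfold sel
  split_ifs with h
  · exact ⟨h.choose_spec.1, h.choose_spec.2.1⟩
  · have := (exists_fresh (M ∪ B)).choose_spec
    exact ⟨fun hh => this (Finset.mem_union_left _ hh), fun hh => this (Finset.mem_union_right _ hh)⟩

theorem sel_win {n : ℕ} {M B : Finset Cell} (h : WinR (n + 1) M B) :
    (∃ C, IsCopy C ∧ C ⊆ insert (sel (n + 1) M B) M) ∨
      ∀ b, b ∉ insert (sel (n + 1) M B) M → b ∉ B →
        WinR n (insert (sel (n + 1) M B) M) (insert b B) := by
  have h' : ∃ m, m ∉ M ∧ m ∉ B ∧ ((∃ C, IsCopy C ∧ C ⊆ insert m M) ∨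
        ∀ b, b ∉ insert m M → b ∉ B → WinR (n + 1 - 1) (insert m M) (insert b B)) := h
  have : sel (n + 1) M B = h'.choose := by
    unfold sel
    rw [dif_pos h']
  rw [this]
  exact h'.choose_spec.2.2

/-- The state of the game (Maker's cells, Breaker's cells, remaining claims). -/
noncomputable def advance (s : ℕ × Finset Cell × Finset Cell) (b : Cell) :
    ℕ × Finset Cell × Finset Cell :=
  (s.1 - 1, insert (sel s.1 s.2.1 s.2.2) s.2.1, insert b s.2.2)

/-- The state after Breaker's claims in the list. -/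
noncomputable def stateOf (N : ℕ) (l : List Cell) : ℕ × Finset Cell × Finset Cell :=
  l.foldl advance (N, ∅, ∅)

/-- The strategy. -/
noncomputable def strat (N : ℕ) (l : List Cell) : Cell :=
  sel (stateOf N l).1 (stateOf N l).2.1 (stateOf N l).2.2

theorem stateOf_succ (N : ℕ) (b : ℕ → Cell) (n : ℕ) :
    stateOf N ((List.range (n + 1)).map b) =
      advance (stateOf N ((List.range n).map b)) (b n) := by
  simp [stateOf, List.range_succ, List.foldl_append]

theorem stateOf_fst (N : ℕ) (b : ℕ → Cell) (n : ℕ) :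
    (stateOf N ((List.range n).map b)).1 = N - n := by
  induction n with
  | zero => simp [stateOf]
  | succ n ih => rw [stateOf_succ]; simp only [advance, ih]; omega

theorem mem_stateOf_maker (N : ℕ) (b : ℕ → Cell) (n : ℕ) (c : Cell) :
    c ∈ (stateOf N ((List.range n).map b)).2.1 ↔ ∃ i < n, makerMove (strat N) b i = c := by
  induction n with
  | zero => simp [stateOf]
  | succ n ih =>
    rw [stateOf_succ]
    simp only [advance, Finset.mem_insert, ih]
    constructor
    · rintro (h | ⟨i, hi, h⟩)
      · exact ⟨n, Nat.lt_succ_self n, h.symm⟩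
      · exact ⟨i, Nat.lt_succ_of_lt hi, h⟩
    · rintro ⟨i, hi, h⟩
      rcases Nat.lt_succ_iff_lt_or_eq.1 hi with hi | rfl
      · exact Or.inr ⟨i, hi, h⟩
      · exact Or.inl h.symm

theorem mem_stateOf_breaker (N : ℕ) (b : ℕ → Cell) (n : ℕ) (c : Cell) :
    c ∈ (stateOf N ((List.range n).map b)).2.2 ↔ ∃ i < n, b i = c := by
  induction n with
  | zero => simp [stateOf]
  | succ n ih =>
    rw [stateOf_succ]
    simp only [advance, Finset.mem_insert, ih]
    constructor
    · rintro (h | ⟨i, hi, h⟩)
      · exact ⟨n, Nat.lt_succ_self n, h.symm⟩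
      · exact ⟨i, Nat.lt_succ_of_lt hi, h⟩
    · rintro ⟨i, hi, h⟩
      rcases Nat.lt_succ_iff_lt_or_eq.1 hi with hi | rfl
      · exact Or.inr ⟨i, hi, h⟩
      · exact Or.inl h.symm

theorem makerLegal_strat (N : ℕ) (b : ℕ → Cell) (n : ℕ) : MakerLegal (strat N) b n := by
  have h := sel_notMem (stateOf N ((List.range n).map b)).1
    (stateOf N ((List.range n).map b)).2.1 (stateOf N ((List.range n).map b)).2.2
  refine ⟨fun i hi he => h.1 ?_, fun i hi he => h.2 ?_⟩
  · exact (mem_stateOf_maker N b n _).2 ⟨i, hi, he.symm⟩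
  · exact (mem_stateOf_breaker N b n _).2 ⟨i, hi, he.symm⟩

/-- If the empty position is winning for Maker within `N + 1` claims, then there is a winning
strategy. -/
theorem exists_strategy {N : ℕ} (h : WinIn (N + 1) ∅ ∅) :
    WinsWithin (strat (N + 1)) (N + 1) := by
  intro b
  refine ⟨fun n _ => makerLegal_strat _ b n, fun hb => ?_⟩
  have key : ∀ n, n ≤ N →
      (∃ C, IsCopy C ∧ ∀ c ∈ C, ∃ i < N + 1, makerMove (strat (N + 1)) b i = c) ∨
      WinR (N + 1 - n) (stateOf (N + 1) ((List.range n).map b)).2.1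
        (stateOf (N + 1) ((List.range n).map b)).2.2 := by
    intro n
    induction n with
    | zero => intro _; right; simpa [stateOf] using h.toR
    | succ n ih =>
      intro hn
      rcases ih (by omega) with hw | hw
      · exact Or.inl hw
      · have e1 : N + 1 - n = (N - n) + 1 := by omega
        rw [e1] at hw
        have hs := sel_win hw
        have e2 : sel ((N - n) + 1) (stateOf (N + 1) ((List.range n).map b)).2.1
            (stateOf (N + 1) ((List.range n).map b)).2.2 = makerMove (strat (N + 1)) b n := by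
          unfold makerMove strat
          rw [stateOf_fst, e1]
        rw [e2] at hs
        rcases hs with ⟨C, hC, hs⟩ | hs
        · left
          refine ⟨C, hC, fun c hc => ?_⟩
          rcases Finset.mem_insert.1 (hs hc) with h1 | h1
          · exact ⟨n, by omega, h1.symm⟩
          · obtain ⟨i, hi, h2⟩ := (mem_stateOf_maker (N + 1) b n c).1 h1
            exact ⟨i, by omega, h2⟩
        · right
          have e3 : N + 1 - (n + 1) = N - n := by omega
          rw [e3, stateOf_succ]
          have e4 : sel (stateOf (N + 1) ((List.range n).map b)).1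
              (stateOf (N + 1) ((List.range n).map b)).2.1
              (stateOf (N + 1) ((List.range n).map b)).2.2 = makerMove (strat (N + 1)) b n := rfl
          simp only [advance, e4]
          have hleg := hb n (by omega)
          refine hs (b n) ?_ ?_
          · intro hm
            rcases Finset.mem_insert.1 hm with h1 | h1
            · exact hleg.1 n le_rfl h1
            · obtain ⟨i, hi, h2⟩ := (mem_stateOf_maker (N + 1) b n (b n)).1 h1
              exact hleg.1 i hi.le h2.symm
          · intro hm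
            obtain ⟨i, hi, h2⟩ := (mem_stateOf_breaker (N + 1) b n (b n)).1 hm
            exact hleg.2 i hi h2.symm
  rcases key N le_rfl with hw | hw
  · exact hw
  · have e1 : N + 1 - N = 0 + 1 := by omega
    rw [e1] at hw
    have hs := sel_win hw
    have e2 : sel (0 + 1) (stateOf (N + 1) ((List.range N).map b)).2.1
        (stateOf (N + 1) ((List.range N).map b)).2.2 = makerMove (strat (N + 1)) b N := by
      unfold makerMove strat
      rw [stateOf_fst, e1]
    rw [e2] at hs
    rcases hs with ⟨C, hC, hs⟩ | hs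
    · refine ⟨C, hC, fun c hc => ?_⟩
      rcases Finset.mem_insert.1 (hs hc) with h1 | h1
      · exact ⟨N, by omega, h1.symm⟩
      · obtain ⟨i, hi, h2⟩ := (mem_stateOf_maker (N + 1) b N c).1 h1
        exact ⟨i, by omega, h2⟩
    · obtain ⟨x, hx⟩ := exists_fresh (insert (makerMove (strat (N + 1)) b N)
        (stateOf (N + 1) ((List.range N).map b)).2.1 ∪
        (stateOf (N + 1) ((List.range N).map b)).2.2)
      exact (hs x (fun h => hx (Finset.mem_union_left _ h))
        (fun h => hx (Finset.mem_union_right _ h))).elim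

/-- Main reduction. -/
theorem exists_strategy_of_good {Z : Set Cell} (h : Good ∅ Z) :
    ∃ (s : List Cell → Cell) (N : ℕ), WinsWithin s N := by
  obtain ⟨n, h⟩ := h
  have h0 : WinIn n ∅ ∅ := h ∅ ∅ (by simp) (by simp) (by simp)
  cases n with
  | zero => exact h0.elim
  | succ n => exact ⟨_, _, exists_strategy h0⟩

end Vale.Agent.P062
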