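import Mathlib

/-!
# P062: the Snaky achievement game in the plane — definitions and general lemmas
-/

namespace Vale.Agent.P062

/-- A cell of the square grid, given by its lower-left corner. -/
abbrev Cell : Type := ℤ × ℤ

/-- The hexomino Snaky. -/
def snaky : Finset Cell := {(0, 0), (1, 0), (2, 0), (3, 0), (3, 1), (4, 1)}

/-- The signed permutation map of the plane given by the signs `e`, `d` and by the choice
whether the two coordinates are exchanged.  These are the eight maps given by the `2 × 2`
signed permutation matrices. -/
def signedPerm (sw : Bool) (e d : ℤˣ) (p : Cell) : Cell :=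
  if sw then ((e : ℤ) * p.2, (d : ℤ) * p.1) else ((e : ℤ) * p.1, (d : ℤ) * p.2)

/-- `C` is an allowed copy of Snaky: a translate of an image of Snaky under one of the eight
signed permutation maps. -/
def IsCopy (C : Finset Cell) : Prop :=
  ∃ (t : Cell) (sw : Bool) (e d : ℤˣ), C = snaky.image (fun p => t + signedPerm sw e d p)

/-- Maker's `(n+1)`-st claim when Maker follows the strategy `s` (a function of the list of
Breaker's earlier claims, in order) and Breaker claims `b 0, b 1, b 2, ...`. -/
def makerMove (s : List Cell → Cell) (b : ℕ → Cell) (n : ℕ) : Cell := s ((List.range n).map b)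

/-- Breaker's `(n+1)`-st claim `b n` is legal: it is none of Maker's first `n+1` claims and
none of Breaker's first `n` claims. -/
def BreakerLegal (s : List Cell → Cell) (b : ℕ → Cell) (n : ℕ) : Prop :=
  (∀ i ≤ n, b n ≠ makerMove s b i) ∧ (∀ i < n, b n ≠ b i)

/-- Maker's `(n+1)`-st claim is legal: it is none of the first `n` claims of Maker and none of
the first `n` claims of Breaker. -/
def MakerLegal (s : List Cell → Cell) (b : ℕ → Cell) (n : ℕ) : Prop :=
  (∀ i < n, makerMove s b n ≠ makerMove s b i) ∧ (∀ i < n, makerMove s b n ≠ b i)

/-- `s` is a winning strategy for Maker on the initially empty board, and it wins by Maker's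
`N`-th claim at the latest: as long as Breaker plays legally, all claims of Maker are legal, and
if Breaker's claims before Maker's `N`-th claim are legal then some allowed copy consists of
cells among Maker's first `N` claims. -/
def WinsWithin (s : List Cell → Cell) (N : ℕ) : Prop :=
  ∀ b : ℕ → Cell,
    (∀ n, (∀ k < n, BreakerLegal s b k) → MakerLegal s b n) ∧
    ((∀ k, k + 1 < N → BreakerLegal s b k) →
      ∃ C, IsCopy C ∧ ∀ c ∈ C, ∃ i < N, makerMove s b i = c)

end Vale.Agent.P062
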