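import Vale.Agent.P062.Sym

/-!
# P062: images of certificate entries under reflections
-/

namespace Vale.Agent.P062

/-- Bounded conjunction. -/
def allBelow (p : ℕ → Bool) : ℕ → Bool
  | 0 => true
  | n + 1 => p n && allBelow p n

theorem allBelow_spec {p : ℕ → Bool} : ∀ {n : ℕ}, allBelow p n = true → ∀ i < n, p i = true := by
  intro n
  induction n with
  | zero => intro _ i hi; exact absurd hi (Nat.not_lt_zero i)
  | succ n ih =>
    intro h i hi
    unfold allBelow at h
    rw [Bool.and_eq_true] at h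
    rcases Nat.lt_succ_iff_lt_or_eq.1 hi with hi | rfl
    · exact ih h.2 i hi
    · exact h.1

/-- The check that the partial map `f`, defined where `v` holds, sends the bits of `z` to bits
of `z'`. -/
def symChk (v : ℕ → Bool) (f : ℕ → ℕ) (z z' : ℕ) : Bool :=
  Nat.beq (Nat.shiftRight z 576) 0 &&
    allBelow (fun i => !(Nat.testBit z i) || (v i && Nat.testBit z' (f i))) 576

theorem symChk_spec {g : Cell ≃ Cell} {v : ℕ → Bool} {f : ℕ → ℕ}
    (hf : ∀ i, v i = true → dec (f i) = g (dec i)) {z z' : ℕ} (h : symChk v f z z' = true) :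
    g '' cells z ⊆ cells z' := by
  unfold symChk at h
  rw [Bool.and_eq_true] at h
  obtain ⟨h1, h2⟩ := h
  have h1 : z >>> 576 = 0 := Nat.eq_of_beq_eq_true h1
  rintro _ ⟨_, ⟨i, hi, rfl⟩, rfl⟩
  have hi2 : i < 576 := by
    by_contra hc
    obtain ⟨j, rfl⟩ := Nat.exists_eq_add_of_le (not_lt.1 hc)
    rw [← Nat.testBit_shiftRight, h1, Nat.zero_testBit] at hi
    exact Bool.noConfusion hi
  have h3 := allBelow_spec h2 i hi2
  simp only [hi, Bool.not_true, Bool.false_or, Bool.and_eq_true] at h3
  rw [← hf i h3.1, mem_cells_dec]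
  exact h3.2

theorem gnSym {g : Cell ≃ Cell} (hg : IsSym g) {v : ℕ → Bool} {f : ℕ → ℕ}
    (hf : ∀ i, v i = true → dec (f i) = g (dec i)) {a z a' z' : ℕ} (h : GN a z)
    (ha : symChk v f a a' = true) (hz : symChk v f z z' = true) : GN a' z' :=
  Good.weaken (Good.image hg h) (symChk_spec hf ha)
    ((symChk_spec hf hz).trans Set.subset_union_left)

/-- Reflection of the first coordinate, on cell numbers. -/
def fX (i : ℕ) : ℕ := (24 - i % 24) + 24 * (i / 24)
def vX (i : ℕ) : Bool := Nat.ble 1 (i % 24)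
/-- Reflection of the second coordinate, on cell numbers. -/
def fY (i : ℕ) : ℕ := i % 24 + 24 * (24 - i / 24)
def vY (i : ℕ) : Bool := Nat.ble (i / 24) 24
/-- Exchange of the coordinates, on cell numbers. -/
def fS (i : ℕ) : ℕ := i / 24 + 24 * (i % 24)
def vS (i : ℕ) : Bool := Nat.ble (i / 24) 23

theorem dec_fX (i : ℕ) (h : vX i = true) : dec (fX i) = symX (dec i) := by
  have h : 1 ≤ i % 24 := Nat.le_of_ble_eq_true h
  have h1 : fX i % 24 = 24 - i % 24 := by unfold fX; omega
  have h2 : fX i / 24 = i / 24 := by unfold fX; omega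
  simp only [dec, h1, h2, symX, Equiv.prodCongr_apply, Prod.map_apply, Equiv.neg_apply,
    Equiv.refl_apply, Prod.mk.injEq, and_true]
  omega

theorem dec_fY (i : ℕ) (h : vY i = true) : dec (fY i) = symY (dec i) := by
  have h : i / 24 ≤ 24 := Nat.le_of_ble_eq_true h
  have h1 : fY i % 24 = i % 24 := by unfold fY; omega
  have h2 : fY i / 24 = 24 - i / 24 := by unfold fY; omega
  simp only [dec, h1, h2, symY, Equiv.prodCongr_apply, Prod.map_apply, Equiv.neg_apply,
    Equiv.refl_apply, Prod.mk.injEq, true_and]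
  omega

theorem dec_fS (i : ℕ) (h : vS i = true) : dec (fS i) = symS (dec i) := by
  have h : i / 24 ≤ 23 := Nat.le_of_ble_eq_true h
  have h1 : fS i % 24 = i / 24 := by unfold fS; omega
  have h2 : fS i / 24 = i % 24 := by unfold fS; omega
  simp only [dec, h1, h2, symS, Equiv.prodComm_apply, Prod.swap_prod_mk]

theorem gnX {a z : ℕ} (a' z' : ℕ) (h : GN a z)
    (hc : (symChk vX fX a a' && symChk vX fX z z') = true) : GN a' z' := by
  rw [Bool.and_eq_true] at hc
  exact gnSym isSym_symX dec_fX h hc.1 hc.2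

theorem gnY {a z : ℕ} (a' z' : ℕ) (h : GN a z)
    (hc : (symChk vY fY a a' && symChk vY fY z z') = true) : GN a' z' := by
  rw [Bool.and_eq_true] at hc
  exact gnSym isSym_symY dec_fY h hc.1 hc.2

theorem gnS {a z : ℕ} (a' z' : ℕ) (h : GN a z)
    (hc : (symChk vS fS a a' && symChk vS fS z z') = true) : GN a' z' := by
  rw [Bool.and_eq_true] at hc
  exact gnSym isSym_symS dec_fS h hc.1 hc.2

theorem cells_zero : cells 0 = ∅ := by
  ext p
  simp [cells]

theorem wins_of_gn {z : ℕ} (h : GN 0 z) : ∃ (s : List Cell → Cell) (N : ℕ), WinsWithin s N := by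
  unfold GN at h
  rw [cells_zero] at h
  exact exists_strategy_of_good h

end Vale.Agent.P062
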