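import Vale.Agent.P062.Bits

/-!
# P062: the eight orientations of Snaky as bit masks
-/

namespace Vale.Agent.P062

theorem bs0 {a z : ℕ} (s j : ℕ) (h : chkB 402653199 4 s j a z = true) : GN a z := by
  refine base_aux (fun s hw => copy_sub false 1 1 (0) (0) 402653199 4 ?_ s hw) h
  intro p hp
  rcases mem_snaky hp with rfl | rfl | rfl | rfl | rfl | rfl
  · exact ⟨0, 0, by decide, by decide, by decide⟩
  · exact ⟨1, 0, by decide, by decide, by decide⟩
  · exact ⟨2, 0, by decide, by decide, by decide⟩
  · exact ⟨3, 0, by decide, by decide, by decide⟩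
  · exact ⟨3, 1, by decide, by decide, by decide⟩
  · exact ⟨4, 1, by decide, by decide, by decide⟩

theorem bs1 {a z : ℕ} (s j : ℕ) (h : chkB 251658264 4 s j a z = true) : GN a z := by
  refine base_aux (fun s hw => copy_sub false 1 (-1) (0) (-1) 251658264 4 ?_ s hw) h
  intro p hp
  rcases mem_snaky hp with rfl | rfl | rfl | rfl | rfl | rfl
  · exact ⟨0, 1, by decide, by decide, by decide⟩
  · exact ⟨1, 1, by decide, by decide, by decide⟩
  · exact ⟨2, 1, by decide, by decide, by decide⟩
  · exact ⟨3, 1, by decide, by decide, by decide⟩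
  · exact ⟨3, 0, by decide, by decide, by decide⟩
  · exact ⟨4, 0, by decide, by decide, by decide⟩

theorem bs2 {a z : ℕ} (s j : ℕ) (h : chkB 50331678 4 s j a z = true) : GN a z := by
  refine base_aux (fun s hw => copy_sub false (-1) 1 (-4) (0) 50331678 4 ?_ s hw) h
  intro p hp
  rcases mem_snaky hp with rfl | rfl | rfl | rfl | rfl | rfl
  · exact ⟨4, 0, by decide, by decide, by decide⟩
  · exact ⟨3, 0, by decide, by decide, by decide⟩
  · exact ⟨2, 0, by decide, by decide, by decide⟩
  · exact ⟨1, 0, by decide, by decide, by decide⟩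
  · exact ⟨1, 1, by decide, by decide, by decide⟩
  · exact ⟨0, 1, by decide, by decide, by decide⟩

theorem bs3 {a z : ℕ} (s j : ℕ) (h : chkB 503316483 4 s j a z = true) : GN a z := by
  refine base_aux (fun s hw => copy_sub false (-1) (-1) (-4) (-1) 503316483 4 ?_ s hw) h
  intro p hp
  rcases mem_snaky hp with rfl | rfl | rfl | rfl | rfl | rfl
  · exact ⟨4, 1, by decide, by decide, by decide⟩
  · exact ⟨3, 1, by decide, by decide, by decide⟩
  · exact ⟨2, 1, by decide, by decide, by decide⟩
  · exact ⟨1, 1, by decide, by decide, by decide⟩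
  · exact ⟨1, 0, by decide, by decide, by decide⟩
  · exact ⟨0, 0, by decide, by decide, by decide⟩

theorem bs4 {a z : ℕ} (s j : ℕ) (h : chkB 158456339195628405271017029633 1 s j a z = true) : GN a z := by
  refine base_aux (fun s hw => copy_sub true 1 1 (0) (0) 158456339195628405271017029633 1 ?_ s hw) h
  intro p hp
  rcases mem_snaky hp with rfl | rfl | rfl | rfl | rfl | rfl
  · exact ⟨0, 0, by decide, by decide, by decide⟩
  · exact ⟨0, 1, by decide, by decide, by decide⟩
  · exact ⟨0, 2, by decide, by decide, by decide⟩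
  · exact ⟨0, 3, by decide, by decide, by decide⟩
  · exact ⟨1, 3, by decide, by decide, by decide⟩
  · exact ⟨1, 4, by decide, by decide, by decide⟩

theorem bs5 {a z : ℕ} (s j : ℕ) (h : chkB 79228167236631101938216206338 1 s j a z = true) : GN a z := by
  refine base_aux (fun s hw => copy_sub true 1 (-1) (0) (-4) 79228167236631101938216206338 1 ?_ s hw) h
  intro p hp
  rcases mem_snaky hp with rfl | rfl | rfl | rfl | rfl | rfl
  · exact ⟨0, 4, by decide, by decide, by decide⟩
  · exact ⟨0, 3, by decide, by decide, by decide⟩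
  · exact ⟨0, 2, by decide, by decide, by decide⟩
  · exact ⟨0, 1, by decide, by decide, by decide⟩
  · exact ⟨1, 1, by decide, by decide, by decide⟩
  · exact ⟨1, 0, by decide, by decide, by decide⟩

theorem bs6 {a z : ℕ} (s j : ℕ) (h : chkB 79228176681364349152466567170 1 s j a z = true) : GN a z := by
  refine base_aux (fun s hw => copy_sub true (-1) 1 (-1) (0) 79228176681364349152466567170 1 ?_ s hw) h
  intro p hp
  rcases mem_snaky hp with rfl | rfl | rfl | rfl | rfl | rfl
  · exact ⟨1, 0, by decide, by decide, by decide⟩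
  · exact ⟨1, 1, by decide, by decide, by decide⟩
  · exact ⟨1, 2, by decide, by decide, by decide⟩
  · exact ⟨1, 3, by decide, by decide, by decide⟩
  · exact ⟨0, 3, by decide, by decide, by decide⟩
  · exact ⟨0, 4, by decide, by decide, by decide⟩

theorem bs7 {a z : ℕ} (s j : ℕ) (h : chkB 158456334473262203876382081025 1 s j a z = true) : GN a z := by
  refine base_aux (fun s hw => copy_sub true (-1) (-1) (-1) (-4) 158456334473262203876382081025 1 ?_ s hw) h
  intro p hp
  rcases mem_snaky hp with rfl | rfl | rfl | rfl | rfl | rfl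
  · exact ⟨1, 4, by decide, by decide, by decide⟩
  · exact ⟨1, 3, by decide, by decide, by decide⟩
  · exact ⟨1, 2, by decide, by decide, by decide⟩
  · exact ⟨1, 1, by decide, by decide, by decide⟩
  · exact ⟨0, 1, by decide, by decide, by decide⟩
  · exact ⟨0, 0, by decide, by decide, by decide⟩

end Vale.Agent.P062
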