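import Vale.Agent.P062.Bits

/-!
# P062: symmetries
-/

namespace Vale.Agent.P062

/-- A bijection of the board that maps allowed copies to allowed copies. -/
def IsSym (g : Cell ≃ Cell) : Prop := ∀ C, IsCopy C → IsCopy (C.image g)

theorem WinIn.image {g : Cell ≃ Cell} (hg : IsSym g) {n : ℕ} :
    ∀ {M B : Finset Cell}, WinIn n M B → WinIn n (M.image g) (B.image g) := by
  induction n with
  | zero => intro M B h; exact h
  | succ n ih =>
    intro M B h
    obtain ⟨m, hm, h⟩ := h
    refine ⟨g m, ?_, ?_⟩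
    · intro hc
      obtain ⟨x, hx, he⟩ := Finset.mem_image.1 hc
      exact hm (g.injective he ▸ hx)
    · rcases h with ⟨C, hC, hs⟩ | h
      · refine Or.inl ⟨C.image g, hg C hC, ?_⟩
        rw [← Finset.image_insert]
        exact Finset.image_subset_image hs
      · refine Or.inr fun b hb hb' => ?_
        obtain ⟨b, rfl⟩ := g.surjective b
        rw [← Finset.image_insert] at hb ⊢
        rw [← Finset.image_insert]
        exact ih (h b (fun hh => hb (Finset.mem_image_of_mem g hh))
          (fun hh => hb' (Finset.mem_image_of_mem g hh)))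

theorem Good.image {g : Cell ≃ Cell} (hg : IsSym g) {M Z : Set Cell} (h : Good M Z) :
    Good (g '' M) (g '' Z) := by
  obtain ⟨n, h⟩ := h
  refine ⟨n, fun M' B' h1 h2 h3 => ?_⟩
  have e : ∀ S : Finset Cell, (S.image g.symm).image g = S := by
    intro S
    rw [Finset.image_image]
    simp
  rw [← e M', ← e B']
  refine WinIn.image hg (h _ _ ?_ ?_ ?_)
  · intro c hc
    refine Finset.mem_image.2 ⟨g c, h1 _ ⟨c, hc, rfl⟩, by simp⟩
  · intro c hc hcm
    obtain ⟨x, hx, rfl⟩ := Finset.mem_image.1 hc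
    obtain ⟨y, hy, he⟩ := Finset.mem_image.1 hcm
    have := g.symm.injective he
    exact h2 x hx (this ▸ hy)
  · intro c hc hcz
    obtain ⟨x, hx, rfl⟩ := Finset.mem_image.1 hc
    exact h3 x hx ⟨_, hcz, by simp⟩

/-- Translation. -/
def symT (t : Cell) : Cell ≃ Cell := Equiv.addLeft t

/-- Exchange of the coordinates. -/
def symS : Cell ≃ Cell := Equiv.prodComm ℤ ℤ

/-- Change of sign of the first coordinate. -/
def symX : Cell ≃ Cell := Equiv.prodCongr (Equiv.neg ℤ) (Equiv.refl ℤ)

/-- Change of sign of the second coordinate. -/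
def symY : Cell ≃ Cell := Equiv.prodCongr (Equiv.refl ℤ) (Equiv.neg ℤ)

theorem isSym_symT (t : Cell) : IsSym (symT t) := by
  rintro C ⟨t', sw, e, d, rfl⟩
  refine ⟨t + t', sw, e, d, ?_⟩
  rw [Finset.image_image]
  congr 1
  funext p
  simp [symT, add_assoc]

theorem isSym_symS : IsSym symS := by
  rintro C ⟨t', sw, e, d, rfl⟩
  refine ⟨(t'.2, t'.1), !sw, d, e, ?_⟩
  rw [Finset.image_image]
  congr 1
  funext p
  obtain ⟨a, b⟩ := t'
  obtain ⟨x, y⟩ := p
  cases sw <;> refine Prod.ext ?_ ?_ <;> simp [symS, signedPerm, Function.comp]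

theorem isSym_symX : IsSym symX := by
  rintro C ⟨t', sw, e, d, rfl⟩
  refine ⟨(-t'.1, t'.2), sw, -e, d, ?_⟩
  rw [Finset.image_image]
  congr 1
  funext p
  obtain ⟨a, b⟩ := t'
  obtain ⟨x, y⟩ := p
  cases sw <;> refine Prod.ext ?_ ?_ <;> simp [symX, signedPerm, Function.comp] <;> ring

theorem isSym_symY : IsSym symY := by
  rintro C ⟨t', sw, e, d, rfl⟩
  refine ⟨(t'.1, -t'.2), sw, e, -d, ?_⟩
  rw [Finset.image_image]
  congr 1
  funext p
  obtain ⟨a, b⟩ := t'
  obtain ⟨x, y⟩ := p
  cases sw <;> refine Prod.ext ?_ ?_ <;> simp [symY, signedPerm, Function.comp] <;> ring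

theorem IsSym.trans {g h : Cell ≃ Cell} (hg : IsSym g) (hh : IsSym h) : IsSym (g.trans h) := by
  intro C hC
  have := hh _ (hg C hC)
  rw [Finset.image_image] at this
  exact this

end Vale.Agent.P062
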